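import Vale.Agent.P072.Main

open Vale.Agent.P072 in
/-- The permanence conjecture for weakly reversible mass-action systems (constant rates). -/
theorem Vale.Agent.Results.P072.Permanence.result (d : ℕ) (hd : 1 ≤ d)
    (C : Finset (Fin d → ℕ)) (R : Finset ((Fin d → ℕ) × (Fin d → ℕ)))
    (_hRC : ∀ r ∈ R, r.1 ∈ C ∧ r.2 ∈ C ∧ r.1 ≠ r.2)
    (hR : WeaklyReversible R)
    (k : (Fin d → ℕ) × (Fin d → ℕ) → ℝ) (hk : ∀ r ∈ R, 0 < k r)
    (c : Fin d → ℝ) (hc : ∀ i, 0 < c i) :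
    PermanentOn (massAction R k) (posClass R c) :=
  permanence hd hR hk hc
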