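import Vale.Agent.P072.Main

open Vale.Agent.P072 in
/-- The permanence conjecture, for constant rates and in the stronger form with measurable
time-dependent rates in `[ε, ε⁻¹]` (one compact set for all such rate functions). -/
theorem Vale.Agent.Results.P072.PermanenceStrong.result (d : ℕ) (hd : 1 ≤ d)
    (C : Finset (Fin d → ℕ)) (R : Finset ((Fin d → ℕ) × (Fin d → ℕ)))
    (_hRC : ∀ r ∈ R, r.1 ∈ C ∧ r.2 ∈ C ∧ r.1 ≠ r.2)
    (hR : WeaklyReversible R) (c : Fin d → ℝ) (hc : ∀ i, 0 < c i) :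
    (∀ k : (Fin d → ℕ) × (Fin d → ℕ) → ℝ, (∀ r ∈ R, 0 < k r) →
      PermanentOn (massAction R k) (posClass R c)) ∧
    (∀ ε : ℝ, 0 < ε → ∃ K : Set (Fin d → ℝ), IsCompact K ∧ K ⊆ posClass R c ∧
      ∀ k : ℝ → (Fin d → ℕ) × (Fin d → ℕ) → ℝ, (∀ r ∈ R, Measurable fun t => k t r) →
        (∀ t, 0 ≤ t → ∀ r ∈ R, ε ≤ k t r ∧ k t r ≤ ε⁻¹) →
        ∀ x₀ ∈ posClass R c, ∃ x : ℝ → Fin d → ℝ, x 0 = x₀ ∧
          IsIntegralSolutionOn (fun t => massAction R (k t)) (Set.Ici 0) x ∧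
          (∀ t, 0 ≤ t → x t ∈ posClass R c) ∧ (∀ᶠ t in Filter.atTop, x t ∈ K) ∧
          ∀ (b : ℝ) (z : ℝ → Fin d → ℝ), z 0 = x₀ →
            IsIntegralSolutionOn (fun t => massAction R (k t)) (Set.Ico 0 b) z →
            ∀ t ∈ Set.Ico 0 b, z t = x t) :=
  ⟨fun _ hk => permanence hd hR hk hc, fun _ hε => strong_permanence hd hR hε hc⟩
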